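import Mathlib

/-!
Pointwise matrix identities for the curvature tensor of quaternionic hyperbolic space
(helper340, for H3 / helper442).
-/

namespace Vale.Agent.P207.H340

open Matrix Finset

variable {n : ℕ}

/-- three skew anticommuting complex structures (index form) -/
structure Qt (w : Fin 3 → Matrix (Fin n) (Fin n) ℝ) : Prop where
  skew : ∀ a i j, w a j i = - w a i j
  sq : ∀ a, w a * w a = -1
  anti : ∀ a b, a ≠ b → w a * w b = - (w b * w a)

/-- `Om i j k l = sum_a w_a(i,j) w_a(k,l)` -/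
def Om (w : Fin 3 → Matrix (Fin n) (Fin n) ℝ) (i j k l : Fin n) : ℝ :=
  ∑ a, w a i j * w a k l

/-- the curvature tensor -/
def IsQR (w : Fin 3 → Matrix (Fin n) (Fin n) ℝ) (R : Fin n → Fin n → Fin n → Fin n → ℝ) : Prop :=
  ∀ i j k l, R i j k l =
    -((if j = k then (1:ℝ) else 0) * (if i = l then (1:ℝ) else 0)
      - (if i = k then (1:ℝ) else 0) * (if j = l then (1:ℝ) else 0)
      + Om w j k i l - Om w i k j l - 2 * Om w i j k l)

variable {w : Fin 3 → Matrix (Fin n) (Fin n) ℝ} {R : Fin n → Fin n → Fin n → Fin n → ℝ}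

theorem Qt.tr (hw : Qt w) (a : Fin 3) : (w a)ᵀ = - w a := by
  ext i j
  simp [hw.skew a i j]

theorem Qt.diag (hw : Qt w) (a : Fin 3) (i : Fin n) : w a i i = 0 := by
  have := hw.skew a i i
  linarith

theorem Qt.conj (hw : Qt w) {a b : Fin 3} (hab : a ≠ b) : w b * w a * w b = w a := by
  rw [hw.anti b a hab.symm, Matrix.neg_mul, Matrix.mul_assoc, hw.sq]
  simp

theorem Qt.conj_self (hw : Qt w) (a : Fin 3) : w a * w a * w a = - w a := by
  rw [hw.sq]; simp

/-- `sum_b w_b w_a w_b = w_a` -/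
theorem Qt.sum_conj (hw : Qt w) (a : Fin 3) : ∑ b, w b * w a * w b = w a := by
  fin_cases a
  · simp only [Fin.sum_univ_three, Fin.zero_eta]
    rw [hw.conj_self, hw.conj (by decide), hw.conj (by decide)]
    simp
  · simp only [Fin.sum_univ_three, Fin.mk_one]
    rw [hw.conj_self, hw.conj (by decide), hw.conj (by decide)]
    simp
  · simp only [Fin.sum_univ_three, Fin.reduceFinMk]
    rw [hw.conj_self, hw.conj (by decide), hw.conj (by decide)]
    simp

/-- contraction of two skew matrices -/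
theorem sum_mul_eq (A B : Matrix (Fin n) (Fin n) ℝ) :
    ∑ p, ∑ q, A p q * B p q = Matrix.trace (Aᵀ * B) := by
  rw [Finset.sum_comm]
  simp [Matrix.trace, Matrix.mul_apply]

theorem Qt.inner (hw : Qt w) (a b : Fin 3) :
    ∑ p, ∑ q, w a p q * w b p q = if a = b then (n : ℝ) else 0 := by
  rw [sum_mul_eq, hw.tr]
  by_cases h : a = b
  · subst h
    rw [Matrix.neg_mul, hw.sq]
    simp [Matrix.trace_one]
  · rw [if_neg h]
    have h1 : Matrix.trace (w a * w b) = 0 := by
      have h2 : Matrix.trace (w a * w b) = - Matrix.trace (w b * w a) := by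
        rw [hw.anti a b h, Matrix.trace_neg]
      rw [Matrix.trace_mul_comm (w b) (w a)] at h2
      linarith
    rw [Matrix.neg_mul, Matrix.trace_neg, h1, neg_zero]

/-- skew times symmetric is trace free -/
theorem trace_skew_symm {A h : Matrix (Fin n) (Fin n) ℝ} (hA : Aᵀ = -A) (hh : hᵀ = h) :
    Matrix.trace (A * h) = 0 := by
  have h1 : Matrix.trace (A * h) = Matrix.trace ((A * h)ᵀ) := (Matrix.trace_transpose _).symm
  rw [Matrix.transpose_mul, hA, hh, Matrix.mul_neg, Matrix.trace_neg,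
    Matrix.trace_mul_comm h A] at h1
  linarith

theorem sum_delta_left (i : Fin n) (f : Fin n → ℝ) :
    ∑ j, (if i = j then (1:ℝ) else 0) * f j = f i := by
  simp

theorem sum3 (F : Fin n → Fin n → Fin 3 → ℝ) :
    ∑ p, ∑ c, ∑ b, F p c b = ∑ b, ∑ p, ∑ c, F p c b := by
  calc ∑ p, ∑ c, ∑ b, F p c b = ∑ p, ∑ b, ∑ c, F p c b :=
        Finset.sum_congr rfl fun p _ => Finset.sum_comm
    _ = ∑ b, ∑ p, ∑ c, F p c b := Finset.sum_comm

theorem sum3' (F : Fin n → Fin n → Fin n → ℝ) :
    ∑ p, ∑ c, ∑ b, F p c b = ∑ b, ∑ p, ∑ c, F p c b := by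
  calc ∑ p, ∑ c, ∑ b, F p c b = ∑ p, ∑ b, ∑ c, F p c b :=
        Finset.sum_congr rfl fun p _ => Finset.sum_comm
    _ = ∑ b, ∑ p, ∑ c, F p c b := Finset.sum_comm

/-- the general contraction `sum_pc R i p c k X p c` -/
theorem RX (hR : IsQR w R) (X : Matrix (Fin n) (Fin n) ℝ) (i k : Fin n) :
    ∑ p, ∑ c, R i p c k * X p c =
      - (Matrix.trace X * (1 : Matrix (Fin n) (Fin n) ℝ) i k) + X k i
      - ∑ b, (∑ p, ∑ c, w b p c * X p c) * w b i k
      + ∑ b, (w b * Xᵀ * w b) i k + 2 * ∑ b, (w b * X * w b) i k := by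
  have e : ∀ p c, R i p c k * X p c =
      -((if p = c then (1:ℝ) else 0) * X p c * (1 : Matrix (Fin n) (Fin n) ℝ) i k)
      + (if i = c then (1:ℝ) else 0) * ((if p = k then (1:ℝ) else 0) * X p c)
      - (∑ b, w b p c * X p c * w b i k) + (∑ b, w b i c * (X p c * w b p k))
      + 2 * ∑ b, w b i p * (X p c * w b c k) := by
    intro p c
    rw [hR i p c k]
    simp only [Om, Matrix.one_apply, neg_mul, Fin.sum_univ_three]
    ring
  simp only [e, Finset.sum_add_distrib, Finset.sum_sub_distrib, Finset.sum_neg_distrib]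
  have t1 : ∑ p, ∑ c, (if p = c then (1:ℝ) else 0) * X p c * (1 : Matrix (Fin n) (Fin n) ℝ) i k
      = Matrix.trace X * (1 : Matrix (Fin n) (Fin n) ℝ) i k := by
    simp [Matrix.trace, Finset.sum_mul]
  have t2 : ∑ p, ∑ c, (if i = c then (1:ℝ) else 0) * ((if p = k then (1:ℝ) else 0) * X p c)
      = X k i := by
    simp
  have t3 : ∑ p, ∑ c, ∑ b, w b p c * X p c * w b i k
      = ∑ b, (∑ p, ∑ c, w b p c * X p c) * w b i k := by
    rw [sum3]
    simp only [Finset.sum_mul]
  have t4 : ∑ p, ∑ c, ∑ b, w b i c * (X p c * w b p k)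
      = ∑ b, (w b * Xᵀ * w b) i k := by
    rw [sum3]
    refine Finset.sum_congr rfl fun b _ => ?_
    rw [Matrix.mul_assoc, Matrix.mul_apply, Finset.sum_comm]
    refine Finset.sum_congr rfl fun c _ => ?_
    rw [Matrix.mul_apply, Finset.mul_sum]
    rfl
  have t5 : ∑ p, ∑ c, 2 * ∑ b, w b i p * (X p c * w b c k)
      = 2 * ∑ b, (w b * X * w b) i k := by
    simp only [Finset.mul_sum]
    rw [sum3]
    refine Finset.sum_congr rfl fun b _ => ?_
    rw [Matrix.mul_assoc, Matrix.mul_apply, Finset.mul_sum]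
    refine Finset.sum_congr rfl fun p _ => ?_
    rw [Matrix.mul_apply, Finset.mul_sum, Finset.mul_sum]
  rw [t1, t2, t3, t4, t5]

/-- contraction of the first pair -/
theorem RY (hw : Qt w) (hR : IsQR w R) (X : Matrix (Fin n) (Fin n) ℝ) (c q : Fin n) :
    ∑ i, ∑ p, X i p * R i p c q =
      - X q c + X c q + ∑ b, (w b * X * w b) q c - ∑ b, (w b * X * w b) c q
      + 2 * ∑ b, (∑ i, ∑ p, w b i p * X i p) * w b c q := by
  have e : ∀ i p, X i p * R i p c q =
      -((if p = c then (1:ℝ) else 0) * ((if i = q then (1:ℝ) else 0) * X i p))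
      + (if i = c then (1:ℝ) else 0) * ((if p = q then (1:ℝ) else 0) * X i p)
      + (∑ b, w b q i * (X i p * w b p c)) - (∑ b, w b c i * (X i p * w b p q))
      + 2 * ∑ b, w b i p * X i p * w b c q := by
    intro i p
    rw [hR i p c q]
    simp only [Om, Fin.sum_univ_three]
    rw [hw.skew 0 i q, hw.skew 1 i q, hw.skew 2 i q, hw.skew 0 i c, hw.skew 1 i c, hw.skew 2 i c]
    ring
  simp only [e, Finset.sum_add_distrib, Finset.sum_sub_distrib, Finset.sum_neg_distrib]
  have t1 : ∑ i, ∑ p, (if p = c then (1:ℝ) else 0) * ((if i = q then (1:ℝ) else 0) * X i p)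
      = X q c := by simp
  have t2 : ∑ i, ∑ p, (if i = c then (1:ℝ) else 0) * ((if p = q then (1:ℝ) else 0) * X i p)
      = X c q := by simp
  have t3 : ∀ x y, ∑ i, ∑ p, ∑ b, w b x i * (X i p * w b p y) = ∑ b, (w b * X * w b) x y := by
    intro x y
    rw [sum3]
    refine Finset.sum_congr rfl fun b _ => ?_
    rw [Matrix.mul_assoc, Matrix.mul_apply]
    refine Finset.sum_congr rfl fun i _ => ?_
    rw [Matrix.mul_apply, Finset.mul_sum]
  have t5 : ∑ i, ∑ p, 2 * ∑ b, w b i p * X i p * w b c q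
      = 2 * ∑ b, (∑ i, ∑ p, w b i p * X i p) * w b c q := by
    simp only [Finset.mul_sum, Finset.sum_mul]
    rw [sum3]
  rw [t1, t2, t3, t3, t5]

/-! ### symmetries -/

theorem Om_anti (hw : Qt w) (i j k l : Fin n) : Om w j i k l = - Om w i j k l := by
  simp only [Om, Fin.sum_univ_three, hw.skew 0 i j, hw.skew 1 i j, hw.skew 2 i j]
  ring

theorem Om_anti' (hw : Qt w) (i j k l : Fin n) : Om w i j l k = - Om w i j k l := by
  simp only [Om, Fin.sum_univ_three, hw.skew 0 k l, hw.skew 1 k l, hw.skew 2 k l]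
  ring

theorem Om_pair (i j k l : Fin n) : Om w k l i j = Om w i j k l := by
  simp only [Om, Fin.sum_univ_three]
  ring

theorem R_anti (hw : Qt w) (hR : IsQR w R) (i j k l : Fin n) : R j i k l = - R i j k l := by
  rw [hR, hR, Om_anti hw i j k l]
  ring

theorem R_pair (hw : Qt w) (hR : IsQR w R) (i j k l : Fin n) : R k l i j = R i j k l := by
  have e1 : Om w l i k j = Om w j k i l := by
    rw [Om_anti hw i l k j, Om_anti' hw i l j k, neg_neg, Om_pair]
  have e2 : Om w k i l j = Om w i k j l := by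
    rw [Om_anti hw i k l j, Om_anti' hw i k j l, neg_neg]
  rw [hR, hR, Om_pair i j k l, e1, e2]
  simp only [eq_comm (a := k), eq_comm (a := l)]
  ring

theorem R_skew (hw : Qt w) (hR : IsQR w R) (i j k l : Fin n) : R i j l k = - R i j k l := by
  rw [← R_pair hw hR i j l k, R_anti hw hR k l i j, R_pair hw hR i j k l]

/-- Ricci contraction -/
theorem ric_mid (hw : Qt w) (hR : IsQR w R) (i k : Fin n) :
    ∑ p, R i p p k = -((n : ℝ) + 8) * (if i = k then (1:ℝ) else 0) := by
  have h := RX hR 1 i k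
  have h0 : ∑ p, ∑ c, R i p c k * (1 : Matrix (Fin n) (Fin n) ℝ) p c = ∑ p, R i p p k := by
    simp [Matrix.one_apply]
  have h1 : ∀ b, ∑ p, ∑ c, w b p c * (1 : Matrix (Fin n) (Fin n) ℝ) p c = 0 := by
    intro b
    simp [Matrix.one_apply, hw.diag b]
  simp only [h1] at h
  rw [h0] at h
  rw [h]
  simp only [Matrix.transpose_one, Matrix.mul_one, hw.sq, Matrix.trace_one, Fin.sum_univ_three,
    Fintype.card_fin, Matrix.neg_apply, Matrix.one_apply, eq_comm (a := k) (b := i)]
  ring

theorem ric_out (hw : Qt w) (hR : IsQR w R) (j c : Fin n) :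
    ∑ i, R i j c i = -((n : ℝ) + 8) * (if j = c then (1:ℝ) else 0) := by
  rw [← ric_mid hw hR j c]
  refine Finset.sum_congr rfl fun i _ => ?_
  rw [R_anti hw hR j i c i, R_skew hw hR j i i c]
  ring

/-! ### the type (2,2) tensor -/

/-- `h` is symmetric, trace free and `sum_a w_a h w_a = h` -/
structure H22 (w : Fin 3 → Matrix (Fin n) (Fin n) ℝ) (h : Matrix (Fin n) (Fin n) ℝ) : Prop where
  symm : ∀ i j, h j i = h i j
  tr0 : ∑ i, h i i = 0
  typ : ∑ a, w a * h * w a = h

variable {h : Matrix (Fin n) (Fin n) ℝ}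

theorem H22.tp (H : H22 w h) : hᵀ = h := by
  ext i j
  simp [H.symm i j]

theorem H22.trace (H : H22 w h) : Matrix.trace h = 0 := H.tr0

theorem H22.inner (hw : Qt w) (H : H22 w h) (a b : Fin 3) :
    ∑ p, ∑ q, w a p q * (w b * h) p q = 0 := by
  rw [sum_mul_eq, hw.tr, ← Matrix.mul_assoc]
  by_cases hab : a = b
  · subst hab
    rw [Matrix.neg_mul, hw.sq, neg_neg, Matrix.one_mul, H.trace]
  · refine trace_skew_symm ?_ H.tp
    rw [Matrix.transpose_mul, Matrix.transpose_neg, hw.tr, hw.tr, Matrix.neg_mul, Matrix.neg_mul,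
      neg_neg, hw.anti a b hab, neg_neg]

theorem H22.inner0 (hw : Qt w) (H : H22 w h) (a : Fin 3) :
    ∑ p, ∑ q, w a p q * h p q = 0 := by
  rw [sum_mul_eq, hw.tr]
  refine trace_skew_symm ?_ H.tp
  rw [Matrix.transpose_neg, hw.tr]

/-- `Ro h = 4 h` in the form `sum_pc R i p c k h p c = 4 h i k` -/
theorem ro_mid (hw : Qt w) (hR : IsQR w R) (H : H22 w h) (i k : Fin n) :
    ∑ p, ∑ c, R i p c k * h p c = 4 * h i k := by
  rw [RX hR h i k]
  simp only [H22.inner0 hw H, H.trace, H.tp]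
  have h1 : ∑ b, (w b * h * w b) i k = h i k := by
    have := congrFun (congrFun H.typ i) k
    rw [← this, Matrix.sum_apply]
  rw [h1, H.symm i k]
  simp
  ring

theorem ro_out (hw : Qt w) (hR : IsQR w R) (H : H22 w h) (j k : Fin n) :
    ∑ i, ∑ c, R i j c k * h i c = -4 * h j k := by
  have e : ∀ i c, R i j c k * h i c = - (R j i c k * h i c) := by
    intro i c
    rw [R_anti hw hR j i c k]; ring
  simp only [e, Finset.sum_neg_distrib]
  rw [ro_mid hw hR H j k]
  ring

theorem conj1 (hw : Qt w) (H : H22 w h) (a : Fin 3) :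
    ∑ b, w b * (h * w a) * w b = -(2 : ℝ) • (w a * h) - h * w a := by
  have key : ∀ b, w b * (h * w a) * w b =
      - (w b * h * w b * w a) + (if b = a then -(2 : ℝ) • (w a * h) else 0) := by
    intro b
    by_cases hb : b = a
    · subst hb
      rw [if_pos rfl]
      have e1 : w b * (h * w b) * w b = - (w b * h) := by
        rw [← Matrix.mul_assoc, Matrix.mul_assoc (w b * h), hw.sq, Matrix.mul_neg, Matrix.mul_one]
      have e2 : w b * h * w b * w b = - (w b * h) := by
        rw [Matrix.mul_assoc (w b * h), hw.sq, Matrix.mul_neg, Matrix.mul_one]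
      rw [e1, e2, neg_neg]
      module
    · rw [if_neg hb, add_zero, ← Matrix.mul_assoc, Matrix.mul_assoc (w b * h), hw.anti a b (Ne.symm hb),
        Matrix.mul_neg, ← Matrix.mul_assoc]
  simp only [key, Finset.sum_add_distrib, Finset.sum_neg_distrib]
  rw [← Finset.sum_mul, H.typ, Finset.sum_ite_eq' univ a]
  simp only [mem_univ, if_true]
  abel

theorem conj2 (hw : Qt w) (H : H22 w h) (a : Fin 3) :
    ∑ b, w b * (w a * h) * w b = -(2 : ℝ) • (h * w a) - w a * h := by
  have key : ∀ b, w b * (w a * h) * w b =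
      - (w a * (w b * h * w b)) + (if b = a then -(2 : ℝ) • (h * w a) else 0) := by
    intro b
    by_cases hb : b = a
    · subst hb
      rw [if_pos rfl]
      have e1 : w b * (w b * h) * w b = - (h * w b) := by
        rw [← Matrix.mul_assoc (w b) (w b), hw.sq, Matrix.neg_mul, Matrix.one_mul, Matrix.neg_mul]
      have e2 : w b * (w b * h * w b) = - (h * w b) := by
        rw [← Matrix.mul_assoc, e1]
      rw [e1, e2, neg_neg]
      module
    · rw [if_neg hb, add_zero, ← Matrix.mul_assoc (w b) (w a), hw.anti b a hb, Matrix.neg_mul,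
        Matrix.neg_mul]
      simp only [Matrix.mul_assoc]
  simp only [key, Finset.sum_add_distrib, Finset.sum_neg_distrib]
  rw [← Finset.mul_sum, H.typ, Finset.sum_ite_eq' univ a]
  simp only [mem_univ, if_true]
  abel

/-- `sum_pc R i p c k (w_a h)(p,c) = -4 (h w_a)(i,k)` -/
theorem ro_wh (hw : Qt w) (hR : IsQR w R) (H : H22 w h) (a : Fin 3) (i k : Fin n) :
    ∑ p, ∑ c, R i p c k * (w a * h) p c = -4 * (h * w a) i k := by
  rw [RX hR (w a * h) i k]
  simp only [H22.inner hw H]
  have ht : Matrix.trace (w a * h) = 0 := trace_skew_symm (hw.tr a) H.tp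
  have hT : (w a * h)ᵀ = - (h * w a) := by
    rw [Matrix.transpose_mul, hw.tr, H.tp, Matrix.mul_neg]
  have h1 : ∑ b, (w b * (w a * h)ᵀ * w b) i k = 2 * (w a * h) i k + (h * w a) i k := by
    rw [hT]
    have := congrFun (congrFun (conj1 hw H a) i) k
    rw [Matrix.sum_apply] at this
    simp only [Matrix.mul_neg, Matrix.neg_mul, Matrix.neg_apply, Finset.sum_neg_distrib, this,
      Matrix.sub_apply, Matrix.smul_apply, smul_eq_mul]
    ring
  have h2 : ∑ b, (w b * (w a * h) * w b) i k = -2 * (h * w a) i k - (w a * h) i k := by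
    have := congrFun (congrFun (conj2 hw H a) i) k
    rw [Matrix.sum_apply] at this
    simp only [this, Matrix.sub_apply, Matrix.smul_apply, smul_eq_mul]
  have h3 : (w a * h) k i = - (h * w a) i k := by
    have := congrFun (congrFun hT i) k
    simpa using this
  rw [ht, h1, h2, h3]
  simp
  ring

theorem norm_wh (hw : Qt w) (h : Matrix (Fin n) (Fin n) ℝ) (a : Fin 3) :
    ∑ i, ∑ k, (w a * h) i k * (w a * h) i k = ∑ i, ∑ k, h i k * h i k := by
  rw [sum_mul_eq, sum_mul_eq, Matrix.transpose_mul, hw.tr, Matrix.mul_assoc,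
    Matrix.neg_mul, ← Matrix.mul_assoc (w a), hw.sq]
  simp

theorem norm_wh_hw (hw : Qt w) (H : H22 w h) :
    ∑ a, ∑ i, ∑ k, (w a * h) i k * (h * w a) i k = - ∑ i, ∑ k, h i k * h i k := by
  have e : ∀ a, ∑ i, ∑ k, (w a * h) i k * (h * w a) i k
      = - Matrix.trace (hᵀ * (w a * h * w a)) := by
    intro a
    rw [sum_mul_eq, Matrix.transpose_mul, hw.tr, ← Matrix.trace_neg, H.tp]
    congr 1
    simp only [Matrix.mul_assoc, Matrix.mul_neg, Matrix.neg_mul]
  simp only [e, Finset.sum_neg_distrib]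
  rw [← Matrix.trace_sum, ← Finset.mul_sum, H.typ, sum_mul_eq]

/-! ### the three contractions -/

theorem W1 (hw : Qt w) (hR : IsQR w R) (H : H22 w h) :
    ∑ i, ∑ j, ∑ c, ∑ k, h j k * (R i j c i * h c k + R i j c k * h i c)
      = -((n : ℝ) + 12) * ∑ j, ∑ k, h j k * h j k := by
  have e1 : ∑ i, ∑ j, ∑ c, ∑ k, h j k * (R i j c i * h c k)
      = -((n : ℝ) + 8) * ∑ j, ∑ k, h j k * h j k := by
    rw [Finset.sum_comm, Finset.mul_sum]
    refine Finset.sum_congr rfl fun j _ => ?_
    rw [Finset.sum_comm]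
    have : ∀ c, ∑ i, ∑ k, h j k * (R i j c i * h c k)
        = (∑ i, R i j c i) * ∑ k, h j k * h c k := by
      intro c
      rw [Finset.sum_mul]
      refine Finset.sum_congr rfl fun i _ => ?_
      rw [Finset.mul_sum]
      refine Finset.sum_congr rfl fun k _ => ?_
      ring
    simp only [this, ric_out hw hR, mul_assoc]
    rw [← Finset.mul_sum, sum_delta_left j (fun c => ∑ k, h j k * h c k)]
  have e2 : ∑ i, ∑ j, ∑ c, ∑ k, h j k * (R i j c k * h i c)
      = -4 * ∑ j, ∑ k, h j k * h j k := by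
    rw [Finset.sum_comm, Finset.mul_sum]
    refine Finset.sum_congr rfl fun j _ => ?_
    have : ∑ i, ∑ c, ∑ k, h j k * (R i j c k * h i c)
        = ∑ k, h j k * ∑ i, ∑ c, R i j c k * h i c := by
      calc ∑ i, ∑ c, ∑ k, h j k * (R i j c k * h i c)
          = ∑ i, ∑ k, ∑ c, h j k * (R i j c k * h i c) :=
            Finset.sum_congr rfl fun i _ => Finset.sum_comm
        _ = ∑ k, ∑ i, ∑ c, h j k * (R i j c k * h i c) := Finset.sum_comm
        _ = _ := by simp only [Finset.mul_sum]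
    rw [this, Finset.mul_sum]
    refine Finset.sum_congr rfl fun k _ => ?_
    rw [ro_out hw hR H j k]
    ring
  simp only [mul_add, Finset.sum_add_distrib]
  rw [e1, e2]
  ring

/-- `sum_ip w_a(i,p) R i p c q = 2 n w_a(c,q)` -/
theorem contr_first (hw : Qt w) (hR : IsQR w R) (a : Fin 3) (c q : Fin n) :
    ∑ i, ∑ p, w a i p * R i p c q = 2 * n * w a c q := by
  rw [RY hw hR (w a) c q]
  have h1 : ∀ x y, ∑ b, (w b * w a * w b) x y = w a x y := by
    intro x y
    have := congrFun (congrFun (hw.sum_conj a) x) y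
    rw [← this, Matrix.sum_apply]
  have h2 : ∀ b, (∑ i, ∑ p, w b i p * w a i p) * w b c q
      = if b = a then (n : ℝ) * w b c q else 0 := by
    intro b
    rw [hw.inner b a]
    split_ifs <;> ring
  simp only [h1, h2, Finset.sum_ite_eq', mem_univ, if_true]
  rw [hw.skew a c q]
  ring

/-- `sum_pq w_a(p,q) R i p c q = n w_a(i,c)` -/
theorem contr_24 (hw : Qt w) (hR : IsQR w R) (a : Fin 3) (i c : Fin n) :
    ∑ p, ∑ q, w a p q * R i p c q = n * w a i c := by
  have e : ∀ p q, w a p q * R i p c q = - (R i p q c * w a p q) := by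
    intro p q
    rw [R_skew hw hR i p q c]; ring
  simp only [e, Finset.sum_neg_distrib]
  rw [RX hR (w a) i c]
  have h1 : ∀ x y, ∑ b, (w b * w a * w b) x y = w a x y := by
    intro x y
    have := congrFun (congrFun (hw.sum_conj a) x) y
    rw [← this, Matrix.sum_apply]
  have h1' : ∀ x y, ∑ b, (w b * (w a)ᵀ * w b) x y = - w a x y := by
    intro x y
    rw [hw.tr, ← h1 x y, ← Finset.sum_neg_distrib]
    refine Finset.sum_congr rfl fun b _ => ?_
    simp
  have h2 : ∀ b, (∑ i, ∑ p, w b i p * w a i p) * w b i c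
      = if b = a then (n : ℝ) * w b i c else 0 := by
    intro b
    rw [hw.inner b a]
    split_ifs <;> ring
  have h3 : Matrix.trace (w a) = 0 := by
    simp [Matrix.trace, hw.diag a]
  simp only [h1, h1', h2, h3, Finset.sum_ite_eq', mem_univ, if_true]
  rw [hw.skew a i c]
  ring

/-- `sum_j w_a(i,j) h(j,k)` -/
theorem mulW (a : Fin 3) (i k : Fin n) : ∑ j, w a i j * h j k = (w a * h) i k :=
  (Matrix.mul_apply).symm

theorem W3aux (hw : Qt w) (hR : IsQR w R) (H : H22 w h) (a : Fin 3) :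
    ∑ i, ∑ j, ∑ p, ∑ q, ∑ k, ∑ c,
      w a i j * w a p q * h j k * (R i p c q * h c k + R i p c k * h q c)
      = n * (∑ i, ∑ k, (w a * h) i k * (w a * h) i k)
        - 4 * ∑ i, ∑ k, (w a * h) i k * (h * w a) i k := by
  have e1 : ∀ i k, ∑ p, ∑ q, ∑ c, w a p q * (R i p c q * h c k + R i p c k * h q c)
      = n * (w a * h) i k - 4 * (h * w a) i k := by
    intro i k
    have f1 : ∑ p, ∑ q, ∑ c, w a p q * (R i p c q * h c k) = n * (w a * h) i k := by
      rw [sum3', ← mulW, Finset.mul_sum]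
      refine Finset.sum_congr rfl fun c _ => ?_
      rw [← mul_assoc, ← contr_24 hw hR a i c, Finset.sum_mul]
      refine Finset.sum_congr rfl fun p _ => ?_
      rw [Finset.sum_mul]
      refine Finset.sum_congr rfl fun q _ => ?_
      ring
    have f2 : ∑ p, ∑ q, ∑ c, w a p q * (R i p c k * h q c) = -4 * (h * w a) i k := by
      rw [← ro_wh hw hR H a i k]
      refine Finset.sum_congr rfl fun p _ => ?_
      rw [Finset.sum_comm]
      refine Finset.sum_congr rfl fun c _ => ?_
      rw [← mulW, Finset.mul_sum]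
      refine Finset.sum_congr rfl fun q _ => ?_
      ring
    simp only [mul_add, Finset.sum_add_distrib]
    rw [f1, f2]
    ring
  calc ∑ i, ∑ j, ∑ p, ∑ q, ∑ k, ∑ c,
      w a i j * w a p q * h j k * (R i p c q * h c k + R i p c k * h q c)
      = ∑ i, ∑ j, ∑ k, ∑ p, ∑ q, ∑ c,
      w a i j * w a p q * h j k * (R i p c q * h c k + R i p c k * h q c) :=
        Finset.sum_congr rfl fun i _ => Finset.sum_congr rfl fun j _ => sum3' _
    _ = ∑ i, ∑ j, ∑ k, w a i j * h j k *
        ∑ p, ∑ q, ∑ c, w a p q * (R i p c q * h c k + R i p c k * h q c) := by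
        refine Finset.sum_congr rfl fun i _ => Finset.sum_congr rfl fun j _ =>
          Finset.sum_congr rfl fun k _ => ?_
        simp only [Finset.mul_sum]
        refine Finset.sum_congr rfl fun p _ => Finset.sum_congr rfl fun q _ =>
          Finset.sum_congr rfl fun c _ => ?_
        ring
    _ = ∑ i, ∑ k, ∑ j, w a i j * h j k * (n * (w a * h) i k - 4 * (h * w a) i k) := by
        refine Finset.sum_congr rfl fun i _ => ?_
        rw [Finset.sum_comm]
        simp only [e1]
    _ = ∑ i, ∑ k, (w a * h) i k * (n * (w a * h) i k - 4 * (h * w a) i k) := by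
        refine Finset.sum_congr rfl fun i _ => Finset.sum_congr rfl fun k _ => ?_
        rw [← Finset.sum_mul, mulW]
    _ = _ := by
        simp only [Finset.mul_sum, ← Finset.sum_sub_distrib]
        refine Finset.sum_congr rfl fun i _ => Finset.sum_congr rfl fun k _ => ?_
        ring

theorem sum6 (F : Fin 3 → Fin n → Fin n → Fin n → Fin n → Fin n → Fin n → ℝ) :
    ∑ i, ∑ j, ∑ p, ∑ q, ∑ k, ∑ c, ∑ a, F a i j p q k c
      = ∑ a, ∑ i, ∑ j, ∑ p, ∑ q, ∑ k, ∑ c, F a i j p q k c := by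
  calc ∑ i, ∑ j, ∑ p, ∑ q, ∑ k, ∑ c, ∑ a, F a i j p q k c
      = ∑ i, ∑ j, ∑ p, ∑ q, ∑ a, ∑ k, ∑ c, F a i j p q k c :=
        Finset.sum_congr rfl fun i _ => Finset.sum_congr rfl fun j _ =>
        Finset.sum_congr rfl fun p _ => Finset.sum_congr rfl fun q _ => sum3 _
    _ = ∑ i, ∑ j, ∑ a, ∑ p, ∑ q, ∑ k, ∑ c, F a i j p q k c :=
        Finset.sum_congr rfl fun i _ => Finset.sum_congr rfl fun j _ => sum3 _
    _ = _ := sum3 _

theorem W3 (hw : Qt w) (hR : IsQR w R) (H : H22 w h) :
    ∑ i, ∑ j, ∑ p, ∑ q, ∑ k, ∑ c,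
      Om w i j p q * h j k * (R i p c q * h c k + R i p c k * h q c)
      = (3 * (n : ℝ) + 4) * ∑ j, ∑ k, h j k * h j k := by
  have e : ∀ i j p q k c, Om w i j p q * h j k * (R i p c q * h c k + R i p c k * h q c)
      = ∑ a, w a i j * w a p q * h j k * (R i p c q * h c k + R i p c k * h q c) := by
    intro i j p q k c
    rw [Om, Finset.sum_mul, Finset.sum_mul]
  simp only [e]
  rw [sum6 (fun a i j p q k c =>
    w a i j * w a p q * h j k * (R i p c q * h c k + R i p c k * h q c))]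
  rw [Finset.sum_congr rfl fun a _ => W3aux hw hR H a]
  rw [Finset.sum_sub_distrib, ← Finset.mul_sum, ← Finset.mul_sum, norm_wh_hw hw H]
  simp only [norm_wh hw h, Finset.sum_const, Finset.card_univ, Fintype.card_fin]
  simp only [nsmul_eq_mul]
  push_cast
  ring

theorem W2aux (hw : Qt w) (hR : IsQR w R) (a : Fin 3) :
    ∑ i, ∑ p, ∑ j, ∑ q, ∑ k, ∑ c,
      w a i p * w a j q * h j k * (R i p c q * h c k + R i p c k * h q c)
      = 2 * n * ((∑ i, ∑ k, (w a * h) i k * (w a * h) i k)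
        - ∑ i, ∑ k, (w a * h) i k * (h * w a) i k) := by
  have e1 : ∀ q k, ∑ j, w a j q * h j k = - (w a * h) q k := by
    intro q k
    rw [← mulW, ← Finset.sum_neg_distrib]
    refine Finset.sum_congr rfl fun j _ => ?_
    rw [hw.skew a q j]; ring
  have e2 : ∀ q k, ∑ c, w a c q * h c k = - (w a * h) q k := e1
  have e3 : ∀ q k, ∑ c, w a c k * h q c = (h * w a) q k := by
    intro q k
    rw [Matrix.mul_apply]
    refine Finset.sum_congr rfl fun c _ => ?_
    ring
  have e4 : ∀ q k, ∑ c, (2 * n * w a c q * h c k + 2 * n * w a c k * h q c)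
      = 2 * n * (- (w a * h) q k + (h * w a) q k) := by
    intro q k
    rw [← e2, ← e3, ← Finset.sum_add_distrib, Finset.mul_sum]
    refine Finset.sum_congr rfl fun c _ => ?_
    ring
  have move : ∀ G : Fin n → Fin n → Fin n → Fin n → Fin n → Fin n → ℝ,
      ∑ i, ∑ p, ∑ j, ∑ q, ∑ k, ∑ c, G i p j q k c
        = ∑ q, ∑ k, ∑ j, ∑ c, ∑ i, ∑ p, G i p j q k c := by
    intro G
    calc ∑ i, ∑ p, ∑ j, ∑ q, ∑ k, ∑ c, G i p j q k c
        = ∑ j, ∑ i, ∑ p, ∑ q, ∑ k, ∑ c, G i p j q k c := sum3' _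
      _ = ∑ j, ∑ q, ∑ i, ∑ p, ∑ k, ∑ c, G i p j q k c :=
          Finset.sum_congr rfl fun j _ => sum3' _
      _ = ∑ q, ∑ j, ∑ i, ∑ p, ∑ k, ∑ c, G i p j q k c := Finset.sum_comm
      _ = ∑ q, ∑ j, ∑ k, ∑ i, ∑ p, ∑ c, G i p j q k c :=
          Finset.sum_congr rfl fun q _ => Finset.sum_congr rfl fun j _ => sum3' _
      _ = ∑ q, ∑ k, ∑ j, ∑ i, ∑ p, ∑ c, G i p j q k c :=
          Finset.sum_congr rfl fun q _ => Finset.sum_comm
      _ = ∑ q, ∑ k, ∑ j, ∑ c, ∑ i, ∑ p, G i p j q k c :=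
          Finset.sum_congr rfl fun q _ => Finset.sum_congr rfl fun k _ =>
            Finset.sum_congr rfl fun j _ => sum3' _
  rw [move]
  have e5 : ∀ q k j c, ∑ i, ∑ p,
      w a i p * w a j q * h j k * (R i p c q * h c k + R i p c k * h q c)
      = (w a j q * h j k) * (2 * n * w a c q * h c k + 2 * n * w a c k * h q c) := by
    intro q k j c
    rw [← contr_first hw hR a c q, ← contr_first hw hR a c k]
    simp only [Finset.sum_mul, ← Finset.sum_add_distrib, Finset.mul_sum]
    refine Finset.sum_congr rfl fun i _ => Finset.sum_congr rfl fun p _ => ?_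
    ring
  simp only [e5, ← Finset.mul_sum, e4]
  simp only [← Finset.sum_mul, e1]
  rw [← Finset.sum_sub_distrib, Finset.mul_sum]
  refine Finset.sum_congr rfl fun q _ => ?_
  rw [← Finset.sum_sub_distrib, Finset.mul_sum]
  refine Finset.sum_congr rfl fun k _ => ?_
  ring

theorem W2 (hw : Qt w) (hR : IsQR w R) (H : H22 w h) :
    ∑ i, ∑ p, ∑ j, ∑ q, ∑ k, ∑ c,
      Om w i p j q * h j k * (R i p c q * h c k + R i p c k * h q c)
      = 8 * (n : ℝ) * ∑ j, ∑ k, h j k * h j k := by
  have e : ∀ i p j q k c, Om w i p j q * h j k * (R i p c q * h c k + R i p c k * h q c)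
      = ∑ a, w a i p * w a j q * h j k * (R i p c q * h c k + R i p c k * h q c) := by
    intro i p j q k c
    rw [Om, Finset.sum_mul, Finset.sum_mul]
  simp only [e]
  rw [sum6 (fun a i p j q k c =>
    w a i p * w a j q * h j k * (R i p c q * h c k + R i p c k * h q c))]
  rw [Finset.sum_congr rfl fun a _ => W2aux hw hR a]
  rw [← Finset.mul_sum, Finset.sum_sub_distrib, norm_wh_hw hw H]
  simp only [norm_wh hw h, Finset.sum_const, Finset.card_univ, Fintype.card_fin]
  simp only [nsmul_eq_mul]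
  push_cast
  ring

/-! ### `Om` as a polynomial in `R` -/

/-- quaternion relation -/
def Quat (w : Fin 3 → Matrix (Fin n) (Fin n) ℝ) (ε : ℝ) : Prop :=
  ε * ε = 1 ∧ w 0 * w 1 = ε • w 2

theorem Quat.m02 (hw : Qt w) {ε : ℝ} (hq : Quat w ε) : w 0 * w 2 = -ε • w 1 := by
  have h1 : w 0 * (w 0 * w 1) = ε • (w 0 * w 2) := by
    rw [hq.2, Matrix.mul_smul]
  rw [← Matrix.mul_assoc, hw.sq, Matrix.neg_mul, Matrix.one_mul] at h1
  have h2 : ε • (ε • (w 0 * w 2)) = ε • (-(w 1)) := by rw [← h1]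
  rw [smul_smul, hq.1, one_smul] at h2
  rw [h2, smul_neg, neg_smul]

theorem Quat.m21 (hw : Qt w) {ε : ℝ} (hq : Quat w ε) : w 2 * w 1 = -ε • w 0 := by
  have h1 : (w 0 * w 1) * w 1 = ε • (w 2 * w 1) := by
    rw [hq.2, Matrix.smul_mul]
  rw [Matrix.mul_assoc, hw.sq, Matrix.mul_neg, Matrix.mul_one] at h1
  have h2 : ε • (ε • (w 2 * w 1)) = ε • (-(w 0)) := by rw [← h1]
  rw [smul_smul, hq.1, one_smul] at h2
  rw [h2, smul_neg, neg_smul]

/-- entries of products: `sum_{b,c} (w_c w_b)(x,y) (w_c w_b)(z,t)` -/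
theorem Quat.dbl (hw : Qt w) {ε : ℝ} (hq : Quat w ε) (x y z t : Fin n) :
    ∑ b, ∑ c, (w c * w b) x y * (w c * w b) z t
      = 3 * ((if x = y then (1:ℝ) else 0) * (if z = t then (1:ℝ) else 0)) + 2 * Om w x y z t := by
  have h01 : w 0 * w 1 = ε • w 2 := hq.2
  have h10 : w 1 * w 0 = -(ε • w 2) := by rw [hw.anti 1 0 (by decide), h01]
  have h02 : w 0 * w 2 = -ε • w 1 := Quat.m02 hw hq
  have h20 : w 2 * w 0 = -(-ε • w 1) := by rw [hw.anti 2 0 (by decide), h02]
  have h21 : w 2 * w 1 = -ε • w 0 := Quat.m21 hw hq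
  have h12 : w 1 * w 2 = -(-ε • w 0) := by rw [hw.anti 1 2 (by decide), h21]
  have he := hq.1
  simp only [Fin.sum_univ_three, h01, h10, h02, h20, h21, h12, hw.sq, Om, Matrix.neg_apply,
    Matrix.smul_apply, Matrix.one_apply, smul_eq_mul]
  linear_combination (2 * (w 0 x y * w 0 z t + w 1 x y * w 1 z t + w 2 x y * w 2 z t)) * he

theorem conj_apply (A X B : Matrix (Fin n) (Fin n) ℝ) (k l : Fin n) :
    (A * X * B) k l = ∑ p, ∑ q, A k p * X p q * B q l := by
  rw [Matrix.mul_apply, Finset.sum_comm]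
  refine Finset.sum_congr rfl fun q _ => ?_
  rw [Matrix.mul_apply, Finset.sum_mul]

/-- `sum_b w_b R_ij w_b = -3 R_ij + 8 Om_ij` -/
theorem wRw (hw : Qt w) {ε : ℝ} (hq : Quat w ε) (hR : IsQR w R) (i j k l : Fin n) :
    ∑ b, ∑ p, ∑ q, w b k p * R i j p q * w b q l = -3 * R i j k l + 8 * Om w i j k l := by
  have e : ∀ b, ∑ p, ∑ q, w b k p * R i j p q * w b q l =
      -(w b k j * w b i l) + w b k i * w b j l
        + ∑ c, (w c * w b) j k * (w c * w b) i l - ∑ c, (w c * w b) i k * (w c * w b) j l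
        + 2 * ∑ c, w c i j * (w b * w c * w b) k l := by
    intro b
    have g1 : ∀ x y : Fin n, ∑ p, ∑ q, ((if x = p then (1:ℝ) else 0) * w b k p) *
        ((if y = q then (1:ℝ) else 0) * w b q l) = w b k x * w b y l := by
      intro x y
      rw [← Finset.sum_mul_sum, sum_delta_left, sum_delta_left]
    have g2 : ∀ x y : Fin n, ∑ p, ∑ q, ∑ c, (w c x p * w b k p) * (w c y q * w b q l)
        = - ∑ c, (w c * w b) x k * (w c * w b) y l := by
      intro x y
      rw [sum3, ← Finset.sum_neg_distrib]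
      refine Finset.sum_congr rfl fun c _ => ?_
      rw [← Finset.sum_mul_sum, Matrix.mul_apply, Matrix.mul_apply, ← neg_mul,
        ← Finset.sum_neg_distrib]
      congr 1
      refine Finset.sum_congr rfl fun p _ => ?_
      rw [hw.skew b p k]; ring
    have g3 : ∑ p, ∑ q, 2 * ∑ c, w c i j * (w b k p * w c p q * w b q l)
        = 2 * ∑ c, w c i j * (w b * w c * w b) k l := by
      simp only [← Finset.mul_sum]
      congr 1
      rw [sum3]
      refine Finset.sum_congr rfl fun c _ => ?_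
      rw [conj_apply]
      simp only [Finset.mul_sum]
    have ee : ∀ p q, w b k p * R i j p q * w b q l =
        - (((if j = p then (1:ℝ) else 0) * w b k p) * ((if i = q then (1:ℝ) else 0) * w b q l))
        + ((if i = p then (1:ℝ) else 0) * w b k p) * ((if j = q then (1:ℝ) else 0) * w b q l)
        - ∑ c, (w c j p * w b k p) * (w c i q * w b q l)
        + ∑ c, (w c i p * w b k p) * (w c j q * w b q l)
        + 2 * ∑ c, w c i j * (w b k p * w c p q * w b q l) := by
      intro p q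
      rw [hR i j p q]
      simp only [Om, Fin.sum_univ_three]
      ring
    simp only [ee, Finset.sum_add_distrib, Finset.sum_sub_distrib, Finset.sum_neg_distrib,
      g1, g2, g3]
    ring
  rw [Finset.sum_congr rfl fun b _ => e b]
  simp only [Finset.sum_add_distrib, Finset.sum_sub_distrib, Finset.sum_neg_distrib,
    ← Finset.mul_sum]
  rw [Quat.dbl hw hq j k i l, Quat.dbl hw hq i k j l]
  have h4 : ∑ b, ∑ c, w c i j * (w b * w c * w b) k l = Om w i j k l := by
    rw [Finset.sum_comm, Om]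
    refine Finset.sum_congr rfl fun c _ => ?_
    rw [← Finset.mul_sum]
    have := congrFun (congrFun (hw.sum_conj c) k) l
    rw [← this, Matrix.sum_apply]
  have h5 : ∑ b, w b k j * w b i l = - Om w j k i l := by
    rw [Om, ← Finset.sum_neg_distrib]
    refine Finset.sum_congr rfl fun c _ => ?_
    rw [hw.skew c j k]; ring
  have h6 : ∑ b, w b k i * w b j l = - Om w i k j l := by
    rw [Om, ← Finset.sum_neg_distrib]
    refine Finset.sum_congr rfl fun c _ => ?_
    rw [hw.skew c i k]; ring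
  rw [h4, h5, h6, hR i j k l]
  ring

/-- `4 (n - 4) Om = R R - 8 R` -/
theorem Om_eq (hw : Qt w) {ε : ℝ} (hq : Quat w ε) (hR : IsQR w R) (i j k l : Fin n) :
    4 * ((n : ℝ) - 4) * Om w i j k l
      = (∑ p, ∑ q, R i j p q * R p q k l) - 8 * R i j k l := by
  have h := RY hw hR (Matrix.of fun p q => R i j p q) k l
  have hsk : ∀ p q, R i j q p = - R i j p q := fun p q => R_skew hw hR i j p q
  have h1 : ∑ b, (w b * (Matrix.of fun p q => R i j p q) * w b) k l
      = -3 * R i j k l + 8 * Om w i j k l := by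
    rw [← wRw hw hq hR i j k l]
    refine Finset.sum_congr rfl fun b _ => ?_
    rw [conj_apply]
    rfl
  have h2 : ∑ b, (w b * (Matrix.of fun p q => R i j p q) * w b) l k
      = 3 * R i j k l - 8 * Om w i j k l := by
    have : ∑ b, (w b * (Matrix.of fun p q => R i j p q) * w b) l k
      = -3 * R i j l k + 8 * Om w i j l k := by
      rw [← wRw hw hq hR i j l k]
      refine Finset.sum_congr rfl fun b _ => ?_
      rw [conj_apply]
      rfl
    rw [this, hsk k l, Om_anti' hw i j k l]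
    ring
  have h3 : ∑ b, (∑ p, ∑ q, w b p q * (Matrix.of fun p q => R i j p q) p q) * w b k l
      = 2 * n * Om w i j k l := by
    rw [Om, Finset.mul_sum]
    refine Finset.sum_congr rfl fun b _ => ?_
    have : ∑ p, ∑ q, w b p q * (Matrix.of fun p q => R i j p q) p q = 2 * n * w b i j := by
      rw [← contr_first hw hR b i j]
      refine Finset.sum_congr rfl fun p _ => Finset.sum_congr rfl fun q _ => ?_
      rw [Matrix.of_apply, R_pair hw hR p q i j]
    rw [this]
    ring
  simp only [Matrix.of_apply] at h h1 h2 h3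
  rw [h, h1, h2, h3, hsk k l]
  ring

end Vale.Agent.P207.H340
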