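import Mathlib

/-!
# P207, line N4, step 3 (S-INV), abstract part

The bundle of the forms `s` for which `⟨N, s⟩` is smooth along the leaves is invariant under the
stable holonomy. `W` is the space of forms; `N x u : W →L[ℝ] ℝ` is the pairing with the tensor at
the point `u` of the disc of `x`; `S` is the subspace of good forms.
-/

open Set Filter Topology Metric

noncomputable section

namespace Vale.Agent.P207.H340

variable {E W : Type*} [NormedAddCommGroup E] [NormedSpace ℝ E]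
  [NormedAddCommGroup W] [NormedSpace ℝ W]

/-- The limit argument: the pull back of a form which is closer and closer to the bundle. -/
theorem mem_of_push {S : Submodule ℝ W} (hS : IsClosed (S : Set W)) {s : W}
    {a b C ε : ℝ} (hab : 2 * b < (3 - ε) * a)
    (Pi : ℕ → W →L[ℝ] W) (sT r : ℕ → W) (h0 : ∀ T, Pi T (sT T) = s) (hr : ∀ T, Pi T (r T) ∈ S)
    (h1 : ∀ T : ℕ, ‖Pi T‖ ≤ C * Real.exp (2 * b * T))
    (h2 : ∀ T : ℕ, ‖sT T - r T‖ ≤ C * Real.exp (-((3 - ε) * a) * T)) : s ∈ S := by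
  have hC : 0 ≤ C := by
    have := h2 0
    simp at this
    exact (norm_nonneg _).trans this
  have hlim : Tendsto (fun T : ℕ => C * C * Real.exp (-((3 - ε) * a - 2 * b)) ^ T) atTop
      (𝓝 0) := by
    have : Tendsto (fun T : ℕ => Real.exp (-((3 - ε) * a - 2 * b)) ^ T) atTop (𝓝 0) :=
      tendsto_pow_atTop_nhds_zero_of_lt_one (Real.exp_pos _).le
        (by simpa using Real.exp_lt_exp.mpr (show -((3 - ε) * a - 2 * b) < 0 by linarith))
    simpa using this.const_mul (C * C)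
  have hb : ∀ T : ℕ, ‖Pi T (r T) - s‖ ≤ C * C * Real.exp (-((3 - ε) * a - 2 * b)) ^ T := by
    intro T
    have e : Pi T (r T) - s = -(Pi T (sT T - r T)) := by rw [map_sub, h0 T]; abel
    rw [e, norm_neg]
    calc ‖Pi T (sT T - r T)‖ ≤ ‖Pi T‖ * ‖sT T - r T‖ := (Pi T).le_opNorm _
      _ ≤ (C * Real.exp (2 * b * T)) * (C * Real.exp (-((3 - ε) * a) * T)) :=
          mul_le_mul (h1 T) (h2 T) (norm_nonneg _) (by positivity)
      _ = C * C * (Real.exp (2 * b * T) * Real.exp (-((3 - ε) * a) * T)) := by ring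
      _ = C * C * Real.exp (-((3 - ε) * a - 2 * b)) ^ T := by
          rw [← Real.exp_add, ← Real.exp_nat_mul]
          congr 2
          ring
  have ht : Tendsto (fun T : ℕ => Pi T (r T)) atTop (𝓝 s) := by
    rw [tendsto_iff_norm_sub_tendsto_zero]
    exact squeeze_zero (fun _ => norm_nonneg _) hb hlim
  exact hS.mem_of_tendsto ht (Eventually.of_forall hr)

/-- **S-INV, one time.** `N`, `N'` are the tensors on the two discs, `g` is the holonomy from the
disc of `x'` to the disc of `x`, both discs are `δ`-close. `σ ∈ S` is a form with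
`|⟨N, σ⟩|_{C^k} ≤ M k`. `lemQ` is LEMMA Q for constant sections at `x'`. -/
theorem dist_le_of_close {N N' : E → W →L[ℝ] ℝ} {g : E → E} {K C δ ε : ℝ}
    {M : ℕ → ℝ} {S' : Set W} {σ : W} (hδ : 0 ≤ δ) (hK : 0 ≤ K)
    (hg : ∀ q ∈ ball (0 : E) 1, g q ∈ ball (0 : E) 2 ∧ ‖g q - q‖ ≤ K * δ)
    (hN : ∀ q ∈ ball (0 : E) 1, ‖N' q - N (g q)‖ ≤ K * δ) (hσ : ‖σ‖ ≤ 1)
    (hs : ContDiffOn ℝ (⊤ : ℕ∞) (fun u => N u σ) (ball 0 2))
    (hM : ∀ k, ∀ u ∈ ball (0 : E) 2, ‖iteratedFDeriv ℝ k (fun u => N u σ) u‖ ≤ M k)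
    (lemQ : ∀ (F : E → ℝ) (d : ℝ), ContDiffOn ℝ (⊤ : ℕ∞) F (ball 0 1) →
      (∀ k, ∀ u ∈ ball (0 : E) 1, ‖iteratedFDeriv ℝ k F u‖ ≤ M k) → 0 ≤ d →
      (∀ u ∈ ball (0 : E) 1, |N' u σ - F u| ≤ d) → infDist σ S' ≤ C * d ^ (1 - ε)) :
    infDist σ S' ≤ C * ((K + M 1 * K) * δ) ^ (1 - ε) := by
  have hsub : ball (0 : E) 1 ⊆ ball 0 2 := ball_subset_ball (by norm_num)
  have hM1 : 0 ≤ M 1 := (norm_nonneg _).trans (hM 1 0 (mem_ball_self (by norm_num)))
  refine lemQ (fun u => N u σ) ((K + M 1 * K) * δ) (hs.mono hsub) (fun k u hu => hM k u (hsub hu))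
    (by positivity) fun q hq => ?_
  obtain ⟨hgq, hgd⟩ := hg q hq
  have e1 : |N' q σ - N (g q) σ| ≤ K * δ := by
    have : N' q σ - N (g q) σ = (N' q - N (g q)) σ := rfl
    rw [this, ← Real.norm_eq_abs]
    calc ‖(N' q - N (g q)) σ‖ ≤ ‖N' q - N (g q)‖ * ‖σ‖ := (N' q - N (g q)).le_opNorm _
      _ ≤ (K * δ) * 1 := mul_le_mul (hN q hq) hσ (norm_nonneg _) (by positivity)
      _ = K * δ := mul_one _
  have e2 : |N (g q) σ - N q σ| ≤ M 1 * (K * δ) := by
    have hc : Convex ℝ (ball (0 : E) 2) := convex_ball _ _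
    have hd : ∀ u ∈ ball (0 : E) 2, DifferentiableAt ℝ (fun u => N u σ) u := fun u hu =>
      ((hs.contDiffAt (isOpen_ball.mem_nhds hu)).differentiableAt (by simp))
    have hb : ∀ u ∈ ball (0 : E) 2, ‖fderiv ℝ (fun u => N u σ) u‖ ≤ M 1 := by
      intro u hu
      have := hM 1 u hu
      rwa [norm_iteratedFDeriv_one] at this
    have := hc.norm_image_sub_le_of_norm_fderiv_le hd hb (hsub hq) hgq
    rw [Real.norm_eq_abs] at this
    exact this.trans (mul_le_mul_of_nonneg_left hgd hM1)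
  calc |N' q σ - N q σ| = |(N' q σ - N (g q) σ) + (N (g q) σ - N q σ)| := by congr 1; ring
    _ ≤ |N' q σ - N (g q) σ| + |N (g q) σ - N q σ| := abs_add_le _ _
    _ ≤ K * δ + M 1 * (K * δ) := add_le_add e1 e2
    _ = (K + M 1 * K) * δ := by ring

end Vale.Agent.P207.H340
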