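import Vale.Agent.P207.H686.ZD
import Vale.Agent.P207.H340.SInv

/-!
# P207, line N4, row S-INV (glue): the S-bundle is invariant under the stable holonomy

`y' = hol y` is a frame of another leaf, positively asymptotic to `y`. `hinv` is the inverse of the
derivative at the centre of the holonomy `a_{y'} ∘ a_y⁻¹` read in the two affine charts. `Near` says
how the tensors on the two discs compare: `κ` is the Darboux coordinate (= the affine coordinate of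
the leaf of `y`) read on the leaf of `y'` in its own affine chart, it is smooth with bounds which do
not depend on the distance `t` of the two discs.
-/

open Set Filter Topology Metric
open scoped ContDiff

set_option maxSynthPendingDepth 3

noncomputable section

namespace Vale.Agent.P207.H340

open Vale.Agent.P207.H686

variable {E W X : Type*} [NormedAddCommGroup E] [NormedSpace ℝ E]
  [NormedAddCommGroup W] [NormedSpace ℝ W]

/-- The action of the linear maps of `E` on the forms by pull back, `pull g s = Q s g g`,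
`Q s g h = s (g ·) (h ·)`. -/
structure Act (E W : Type*) [NormedAddCommGroup E] [NormedSpace ℝ E]
    [NormedAddCommGroup W] [NormedSpace ℝ W] where
  Q : W → (E →L[ℝ] E) →L[ℝ] (E →L[ℝ] E) →L[ℝ] W
  add : ∀ s s' g h, Q (s + s') g h = Q s g h + Q s' g h
  smul : ∀ (c : ℝ) s g h, Q (c • s) g h = c • Q s g h
  le : ∀ s g h, ‖Q s g h‖ ≤ ‖s‖ * ‖g‖ * ‖h‖
  mul : ∀ g h s, Q s (g ∘L h) (g ∘L h) = Q (Q s g g) h h
  one : ∀ s, Q s (ContinuousLinearMap.id ℝ E) (ContinuousLinearMap.id ℝ E) = s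

namespace Act

variable (A : Act E W)

/-- pull back of a form -/
def pull (g : E →L[ℝ] E) : W →L[ℝ] W :=
  LinearMap.mkContinuous
    { toFun := fun s => A.Q s g g
      map_add' := fun s s' => A.add s s' g g
      map_smul' := fun c s => A.smul c s g g } (‖g‖ ^ 2) (fun s => by
      refine (A.le s g g).trans (le_of_eq ?_)
      ring)

theorem pull_apply (g : E →L[ℝ] E) (s : W) : A.pull g s = A.Q s g g := rfl

theorem norm_pull (g : E →L[ℝ] E) (s : W) : ‖A.pull g s‖ ≤ ‖g‖ ^ 2 * ‖s‖ := by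
  refine (A.le s g g).trans (le_of_eq ?_)
  ring

theorem norm_pull_sub (g h : E →L[ℝ] E) (s : W) :
    ‖A.pull g s - A.pull h s‖ ≤ (‖g‖ + ‖h‖) * ‖g - h‖ * ‖s‖ := by
  have e : A.pull g s - A.pull h s = A.Q s g (g - h) + A.Q s (g - h) h := by
    simp only [pull_apply, map_sub, sub_apply]
    abel
  rw [e]
  calc ‖A.Q s g (g - h) + A.Q s (g - h) h‖ ≤ ‖s‖ * ‖g‖ * ‖g - h‖ + ‖s‖ * ‖g - h‖ * ‖h‖ :=
        (norm_add_le _ _).trans (add_le_add (A.le _ _ _) (A.le _ _ _))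
    _ = (‖g‖ + ‖h‖) * ‖g - h‖ * ‖s‖ := by ring

theorem pull_comp (g h : E →L[ℝ] E) (s : W) : A.pull (g ∘L h) s = A.pull h (A.pull g s) :=
  A.mul g h s

theorem pull_id (s : W) : A.pull (ContinuousLinearMap.id ℝ E) s = s := A.one s

theorem pull_symm_pull (g : E ≃L[ℝ] E) (s : W) :
    A.pull (g : E →L[ℝ] E) (A.pull (g.symm : E →L[ℝ] E) s) = s := by
  rw [← pull_comp]
  have : (g.symm : E →L[ℝ] E) ∘L (g : E →L[ℝ] E) = ContinuousLinearMap.id ℝ E := by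
    ext x; simp
  rw [this, pull_id]

theorem pull_pull_symm (g : E ≃L[ℝ] E) (s : W) :
    A.pull (g.symm : E →L[ℝ] E) (A.pull (g : E →L[ℝ] E) s) = s := by
  have := A.pull_symm_pull g.symm s
  simpa using this

/-- the action of an isomorphism -/
def push (g : E ≃L[ℝ] E) : W ≃L[ℝ] W :=
  ContinuousLinearEquiv.equivOfInverse (A.pull (g.symm : E →L[ℝ] E)) (A.pull (g : E →L[ℝ] E))
    (fun s => A.pull_symm_pull g s) (fun s => A.pull_pull_symm g s)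

@[simp] theorem push_apply (g : E ≃L[ℝ] E) (s : W) :
    A.push g s = A.pull (g.symm : E →L[ℝ] E) s := rfl

@[simp] theorem push_symm_apply (g : E ≃L[ℝ] E) (s : W) :
    (A.push g).symm s = A.pull (g : E →L[ℝ] E) s := rfl

end Act

/-- The bilinear forms. -/
def actForms (E : Type*) [NormedAddCommGroup E] [NormedSpace ℝ E] :
    Act E (E →L[ℝ] E →L[ℝ] ℝ) where
  Q := fun s => LinearMap.mkContinuous₂
    (LinearMap.mk₂ ℝ (fun g h : E →L[ℝ] E => s.bilinearComp g h)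
      (by intro g g' h; ext x y; simp) (by intro c g h; ext x y; simp)
      (by intro g h h'; ext x y; simp) (by intro c g h; ext x y; simp)) ‖s‖ (by
      intro g h
      refine ContinuousLinearMap.opNorm_le_bound₂ _ (by positivity) ?_
      intro x y
      simp only [LinearMap.mk₂_apply, ContinuousLinearMap.bilinearComp_apply]
      calc ‖s (g x) (h y)‖ ≤ ‖s‖ * ‖g x‖ * ‖h y‖ := s.le_opNorm₂ _ _
        _ ≤ ‖s‖ * (‖g‖ * ‖x‖) * (‖h‖ * ‖y‖) := by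
            gcongr
            · exact g.le_opNorm x
            · exact h.le_opNorm y
        _ = ‖s‖ * ‖g‖ * ‖h‖ * ‖x‖ * ‖y‖ := by ring)
  add := by intro s s' g h; ext x y; simp
  smul := by intro c s g h; ext x y; simp
  le := by
    intro s g h
    simp only [LinearMap.mkContinuous₂_apply, LinearMap.mk₂_apply]
    refine ContinuousLinearMap.opNorm_le_bound₂ _ (by positivity) ?_
    intro x y
    simp only [ContinuousLinearMap.bilinearComp_apply]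
    calc ‖s (g x) (h y)‖ ≤ ‖s‖ * ‖g x‖ * ‖h y‖ := s.le_opNorm₂ _ _
      _ ≤ ‖s‖ * (‖g‖ * ‖x‖) * (‖h‖ * ‖y‖) := by
          gcongr
          · exact g.le_opNorm x
          · exact h.le_opNorm y
      _ = ‖s‖ * ‖g‖ * ‖h‖ * ‖x‖ * ‖y‖ := by ring
  mul := by intro g h s; ext x y; simp
  one := by intro s; ext x y; simp

@[simp] theorem actForms_pull (g : E →L[ℝ] E) (s : E →L[ℝ] E →L[ℝ] ℝ) (x y : E) :
    (actForms E).pull g s x y = s (g x) (g y) := by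
  rw [Act.pull_apply]
  simp [actForms]

/-- The two discs of `y` and `y'` are `t`-close. -/
def Near (A : Act E W) (r : ℝ) (M : ℕ → ℝ) (t : ℝ) (N N' : E → W →L[ℝ] ℝ)
    (hinv : E →L[ℝ] E) : Prop :=
  ∃ (κ g : E → E) (B : E → W →L[ℝ] ℝ), ContDiffOn ℝ ∞ κ (ball 0 r) ∧ ContDiffOn ℝ ∞ B (ball 0 r) ∧
    (∀ k, ∀ u ∈ ball (0 : E) r, ‖iteratedFDeriv ℝ k κ u‖ ≤ M k) ∧
    (∀ k, ∀ u ∈ ball (0 : E) r, ‖iteratedFDeriv ℝ k B u‖ ≤ M k) ∧
    (∀ u ∈ ball (0 : E) r, κ u ∈ ball (0 : E) 1 ∧ g u ∈ ball (0 : E) 1 ∧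
      ‖g u - κ u‖ ≤ M 0 * t ∧
      ∀ s, |N' u (A.pull (fderiv ℝ κ u) s) - N (g u) s - B u (A.pull (fderiv ℝ κ u) s)|
        ≤ M 0 * t * ‖s‖) ∧
    ‖hinv - fderiv ℝ κ 0‖ ≤ M 0 * t

/-- The two discs of `y` and `y'` are `t`-close, with the rate `t ^ κ` for the derivative of the
holonomy. -/
def NearK (A : Act E W) (r : ℝ) (M : ℕ → ℝ) (θ t : ℝ) (N N' : E → W →L[ℝ] ℝ)
    (hinv : E →L[ℝ] E) : Prop :=
  ∃ (κ g : E → E) (B : E → W →L[ℝ] ℝ), ContDiffOn ℝ ∞ κ (ball 0 r) ∧ ContDiffOn ℝ ∞ B (ball 0 r) ∧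
    (∀ k, ∀ u ∈ ball (0 : E) r, ‖iteratedFDeriv ℝ k κ u‖ ≤ M k) ∧
    (∀ k, ∀ u ∈ ball (0 : E) r, ‖iteratedFDeriv ℝ k B u‖ ≤ M k) ∧
    (∀ u ∈ ball (0 : E) r, κ u ∈ ball (0 : E) 1 ∧ g u ∈ ball (0 : E) 1 ∧
      ‖g u - κ u‖ ≤ M 0 * t ∧
      ∀ s, |N' u (A.pull (fderiv ℝ κ u) s) - N (g u) s - B u (A.pull (fderiv ℝ κ u) s)|
        ≤ M 0 * t * ‖s‖) ∧
    ‖hinv - fderiv ℝ κ 0‖ ≤ M 0 * t ^ θ

theorem Near.nearK {A : Act E W} {r : ℝ} {M : ℕ → ℝ} {t : ℝ} {N N' : E → W →L[ℝ] ℝ}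
    {hinv : E →L[ℝ] E} (hr : 0 < r) (h : Near A r M t N N' hinv) (ht : 0 < t) (ht1 : t ≤ 1)
    {θ : ℝ} (hθ : θ ≤ 1) : NearK A r M θ t N N' hinv := by
  obtain ⟨κ, g, B, h1, h2, h3, h4, h5, h6⟩ := h
  refine ⟨κ, g, B, h1, h2, h3, h4, h5, h6.trans ?_⟩
  have hM0 : 0 ≤ M 0 := (norm_nonneg _).trans (h3 0 0 (mem_ball_self hr))
  gcongr
  calc t = t ^ (1 : ℝ) := (Real.rpow_one t).symm
    _ ≤ t ^ θ := Real.rpow_le_rpow_of_exponent_ge ht ht1 hθ

/-- **LEMMA Q** on the disc of radius `r` (at the centre). -/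
def LemQ (D : ZD E W X) (r : ℝ) : Prop :=
  ∀ e : ℝ, 0 < e → ∀ M : ℕ → ℝ, ∃ C : ℝ, ∀ (v : X) (σ : E → W) (F : E → ℝ) (δ : ℝ),
    ContDiffOn ℝ ∞ σ (ball 0 r) → ContDiffOn ℝ ∞ F (ball 0 r) →
    (∀ k, ∀ u ∈ ball (0 : E) r, ‖iteratedFDeriv ℝ k σ u‖ ≤ M k) →
    (∀ k, ∀ u ∈ ball (0 : E) r, ‖iteratedFDeriv ℝ k F u‖ ≤ M k) →
    0 < δ → δ ≤ 1 → (∀ u ∈ ball (0 : E) r, |D.N v u (σ u) - F u| ≤ δ) →
    ∃ s ∈ D.Sm v, ‖σ 0 - s‖ ≤ C * δ ^ (1 - e)

/-! ### bounds of all orders -/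

section Bounds

variable {V F G H : Type*} [NormedAddCommGroup V] [NormedSpace ℝ V] [NormedAddCommGroup F]
  [NormedSpace ℝ F] [NormedAddCommGroup G] [NormedSpace ℝ G] [NormedAddCommGroup H]
  [NormedSpace ℝ H]

theorem norm_iter_bilin (B : F →L[ℝ] G →L[ℝ] H) {f : V → F} {g : V → G} {O : Set V}
    (hO : IsOpen O) (hf : ContDiffOn ℝ ∞ f O) (hg : ContDiffOn ℝ ∞ g O) {b : ℝ} (hB : ‖B‖ ≤ b)
    {Mf Mg : ℕ → ℝ} {x : V} (hx : x ∈ O) (h1 : ∀ k, ‖iteratedFDeriv ℝ k f x‖ ≤ Mf k)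
    (h2 : ∀ k, ‖iteratedFDeriv ℝ k g x‖ ≤ Mg k) (k : ℕ) :
    ‖iteratedFDeriv ℝ k (fun y => B (f y) (g y)) x‖ ≤
      b * ∑ i ∈ Finset.range (k + 1), (k.choose i : ℝ) * Mf i * Mg (k - i) := by
  have h := B.norm_iteratedFDerivWithin_le_of_bilinear hf hg hO.uniqueDiffOn hx
    (n := k) (by exact_mod_cast le_top)
  rw [iteratedFDerivWithin_of_isOpen k hO hx] at h
  have hb : 0 ≤ b := le_trans (norm_nonneg B) hB
  refine h.trans (mul_le_mul hB ?_ (Finset.sum_nonneg fun i _ => by positivity) hb)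
  refine Finset.sum_le_sum fun i _ => ?_
  rw [iteratedFDerivWithin_of_isOpen i hO hx, iteratedFDerivWithin_of_isOpen (k - i) hO hx]
  have hm : 0 ≤ Mf i := (norm_nonneg _).trans (h1 i)
  gcongr
  · exact h1 i
  · exact h2 (k - i)

/-- a majorant of the derivatives up to the order `k` -/
def maj (M : ℕ → ℝ) (k : ℕ) : ℝ := 1 + ∑ i ∈ Finset.range (k + 1), |M i|

theorem maj_one (M : ℕ → ℝ) (k : ℕ) : 1 ≤ maj M k :=
  le_add_of_nonneg_right (Finset.sum_nonneg fun _ _ => abs_nonneg _)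

theorem le_maj (M : ℕ → ℝ) {i k : ℕ} (h : i ≤ k) : M i ≤ maj M k := by
  have h1 : |M i| ≤ ∑ j ∈ Finset.range (k + 1), |M j| :=
    Finset.single_le_sum (f := fun j => |M j|) (fun _ _ => abs_nonneg _)
      (Finset.mem_range.2 (by omega))
  have := le_abs_self (M i)
  unfold maj
  linarith

theorem norm_iter_comp {f : V → F} {g : F → G} {O : Set V} {O' : Set F}
    (hO : IsOpen O) (hO' : IsOpen O') (hf : ContDiffOn ℝ ∞ f O) (hg : ContDiffOn ℝ ∞ g O')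
    (hm : MapsTo f O O') {Mf Mg : ℕ → ℝ} {x : V} (hx : x ∈ O)
    (h1 : ∀ k, ‖iteratedFDeriv ℝ k f x‖ ≤ Mf k)
    (h2 : ∀ k, ‖iteratedFDeriv ℝ k g (f x)‖ ≤ Mg k) (k : ℕ) :
    ‖iteratedFDeriv ℝ k (fun y => g (f y)) x‖ ≤ k.factorial * maj Mg k * maj Mf k ^ k := by
  have h := norm_iteratedFDerivWithin_comp_le hg hf (n := k) (by exact_mod_cast le_top)
    hO'.uniqueDiffOn hO.uniqueDiffOn hm hx (C := maj Mg k) (D := maj Mf k)
    (fun i hi => by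
      rw [iteratedFDerivWithin_of_isOpen i hO' (hm hx)]
      exact (h2 i).trans (le_maj Mg hi))
    (fun i h1i hi => by
      rw [iteratedFDerivWithin_of_isOpen i hO hx]
      refine (h1 i).trans ((le_maj Mf hi).trans ?_)
      exact le_self_pow₀ (maj_one Mf k) (by omega))
  rwa [iteratedFDerivWithin_of_isOpen k hO hx] at h

end Bounds

/-- the bounds of the section `u ↦ pull (Dκ u) s`, `‖s‖ ≤ 1` -/
def secM (M : ℕ → ℝ) (k : ℕ) : ℝ :=
  1 * ∑ i ∈ Finset.range (k + 1), (k.choose i : ℝ) * M (i + 1) * M (k - i + 1)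

theorem sec_smooth (A : Act E W) {κ : E → E} {O : Set E} (hO : IsOpen O)
    (hκ : ContDiffOn ℝ ∞ κ O) (s : W) :
    ContDiffOn ℝ ∞ (fun u => A.pull (fderiv ℝ κ u) s) O := by
  have h1 : ContDiffOn ℝ ∞ (fderiv ℝ κ) O := hκ.fderiv_of_isOpen hO (by exact_mod_cast le_top)
  have h3 : ContDiffOn ℝ ∞ (fun u => A.Q s (fderiv ℝ κ u)) O :=
    (A.Q s).contDiff.comp_contDiffOn h1
  exact h3.clm_apply h1

theorem sec_bound (A : Act E W) {κ : E → E} {O : Set E} (hO : IsOpen O)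
    (hκ : ContDiffOn ℝ ∞ κ O) {M : ℕ → ℝ} {s : W} (hs : ‖s‖ ≤ 1) {u : E} (hu : u ∈ O)
    (h : ∀ k, ‖iteratedFDeriv ℝ k κ u‖ ≤ M k) (k : ℕ) :
    ‖iteratedFDeriv ℝ k (fun u => A.pull (fderiv ℝ κ u) s) u‖ ≤ secM M k := by
  have h1 : ContDiffOn ℝ ∞ (fderiv ℝ κ) O := hκ.fderiv_of_isOpen hO (by exact_mod_cast le_top)
  have h2 : ∀ k, ‖iteratedFDeriv ℝ k (fderiv ℝ κ) u‖ ≤ M (k + 1) := fun k => by
    rw [norm_iteratedFDeriv_fderiv]
    exact h (k + 1)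
  have hB : ‖A.Q s‖ ≤ 1 := by
    refine ContinuousLinearMap.opNorm_le_bound₂ _ zero_le_one fun g h => ?_
    refine (A.le s g h).trans ?_
    gcongr
  exact norm_iter_bilin (A.Q s) hO h1 h1 hB hu h2 h2 k

/-- the bounds of the function `F` -/
def funM (Cb M : ℕ → ℝ) (k : ℕ) : ℝ :=
  k.factorial * maj Cb k * maj M k ^ k +
    1 * ∑ i ∈ Finset.range (k + 1), (k.choose i : ℝ) * M i * secM M (k - i)

variable {D : ZD E W X} {A : Act E W}

/-- **S-INV at one time.** -/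
theorem near_dist {r : ℝ} (hr0 : 0 < r) (hQ : LemQ D r) {Cb : ℕ → ℝ}
    (hCb : ∀ v, ∀ s ∈ D.Sm v, ∀ k, ∀ x ∈ ball (0 : E) 1,
      ‖iteratedFDeriv ℝ k (fun y => D.N v y s) x‖ ≤ Cb k * ‖s‖)
    {e : ℝ} (he : 0 < e) (he1 : e < 1) (M : ℕ → ℝ) :
    ∃ C : ℝ, 0 ≤ C ∧ ∃ t0 : ℝ, 0 < t0 ∧ ∀ (y y' : X) (hinv : E →L[ℝ] E) (t : ℝ), 0 < t → t ≤ t0 →
      NearK A r M (1 - e) t (D.N y) (D.N y') hinv → ∀ s ∈ D.Sm y, ∃ s' ∈ D.Sm y',
        ‖A.pull hinv s - s'‖ ≤ C * t ^ (1 - e) * ‖s‖ := by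
  obtain ⟨C, hC⟩ := hQ e he (fun k => max (secM M k) (funM Cb M k))
  set K : ℝ := max 1 ((Cb 1 + 1) * M 0) with hK
  have hK1 : 1 ≤ K := le_max_left _ _
  have hK0 : 0 < K := one_pos.trans_le hK1
  set C' : ℝ := |C| * K ^ (1 - e) + (|M 1| + |M 0| + |M 1|) * |M 0| with hC'
  refine ⟨C', by positivity, min K⁻¹ 1, lt_min (inv_pos.2 hK0) one_pos, ?_⟩
  intro y y' hinv t ht htt0 hN s hs
  have ht1 : t ≤ 1 := htt0.trans (min_le_right _ _)
  have htK : K * t ≤ 1 := by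
    have := htt0.trans (min_le_left _ _)
    calc K * t ≤ K * K⁻¹ := by gcongr
      _ = 1 := mul_inv_cancel₀ hK0.ne'
  rcases eq_or_ne s 0 with rfl | hs0
  · exact ⟨0, Submodule.zero_mem _, by simp⟩
  obtain ⟨κ, g, B, hκ, hB, hκM, hBM, hnear, hh⟩ := hN
  have hsn : 0 < ‖s‖ := norm_pos_iff.2 hs0
  set s1 : W := ‖s‖⁻¹ • s with hs1
  have hs1m : s1 ∈ D.Sm y := Submodule.smul_mem _ _ hs
  have hs1n : ‖s1‖ = 1 := by
    rw [hs1, norm_smul, norm_inv, norm_norm, inv_mul_cancel₀ hsn.ne']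
  have h0r : (0 : E) ∈ ball (0 : E) r := mem_ball_self hr0
  have hM0 : 0 ≤ M 0 := (norm_nonneg _).trans (hκM 0 0 h0r)
  have hM1 : 0 ≤ M 1 := (norm_nonneg _).trans (hκM 1 0 h0r)
  have h01 : (0 : E) ∈ ball (0 : E) 1 := mem_ball_self one_pos
  have hCbs : ∀ k, 0 ≤ Cb k := fun k => by
    have := (norm_nonneg _).trans (hCb y s1 hs1m k 0 h01)
    rwa [hs1n, mul_one] at this
  have hop : IsOpen (ball (0 : E) r) := isOpen_ball
  have hmaps : MapsTo κ (ball 0 r) (ball 0 1) := fun u hu => (hnear u hu).1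
  -- the section and the function
  have hσs := sec_smooth A hop hκ s1
  have hσM : ∀ k, ∀ u ∈ ball (0 : E) r,
      ‖iteratedFDeriv ℝ k (fun u => A.pull (fderiv ℝ κ u) s1) u‖ ≤ secM M k := fun k u hu =>
    sec_bound A hop hκ hs1n.le hu (fun k => hκM k u hu) k
  have hNs : ContDiffOn ℝ ∞ (fun x => D.N y x s1) (ball 0 1) := hs1m
  have hF1s : ContDiffOn ℝ ∞ (fun u => D.N y (κ u) s1) (ball 0 r) := hNs.comp hκ hmaps
  have hF2s : ContDiffOn ℝ ∞ (fun u => B u (A.pull (fderiv ℝ κ u) s1)) (ball 0 r) :=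
    hB.clm_apply hσs
  have hF1M : ∀ k, ∀ u ∈ ball (0 : E) r,
      ‖iteratedFDeriv ℝ k (fun u => D.N y (κ u) s1) u‖ ≤ k.factorial * maj Cb k * maj M k ^ k :=
    fun k u hu => norm_iter_comp (g := fun x => D.N y x s1) hop isOpen_ball hκ hNs hmaps hu
      (fun k => hκM k u hu) (fun k => by
        have := hCb y s1 hs1m k (κ u) (hmaps hu)
        rwa [hs1n, mul_one] at this) k
  have hidn : ‖(ContinuousLinearMap.id ℝ (W →L[ℝ] ℝ))‖ ≤ 1 := ContinuousLinearMap.norm_id_le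
  have hF2M : ∀ k, ∀ u ∈ ball (0 : E) r,
      ‖iteratedFDeriv ℝ k (fun u => B u (A.pull (fderiv ℝ κ u) s1)) u‖ ≤
        1 * ∑ i ∈ Finset.range (k + 1), (k.choose i : ℝ) * M i * secM M (k - i) :=
    fun k u hu => norm_iter_bilin (ContinuousLinearMap.id ℝ (W →L[ℝ] ℝ)) hop hB hσs hidn hu
      (fun k => hBM k u hu) (fun k => hσM k u hu) k
  have hFM : ∀ k, ∀ u ∈ ball (0 : E) r,
      ‖iteratedFDeriv ℝ k (fun u => D.N y (κ u) s1 + B u (A.pull (fderiv ℝ κ u) s1)) u‖ ≤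
        funM Cb M k := fun k u hu => by
    have h1 : ContDiffAt ℝ k (fun u => D.N y (κ u) s1) u :=
      (hF1s.contDiffAt (hop.mem_nhds hu)).of_le (by exact_mod_cast le_top)
    have h2 : ContDiffAt ℝ k (fun u => B u (A.pull (fderiv ℝ κ u) s1)) u :=
      (hF2s.contDiffAt (hop.mem_nhds hu)).of_le (by exact_mod_cast le_top)
    have h3 := fun_iteratedFDeriv_add_apply h1 h2
    rw [h3]
    exact (norm_add_le _ _).trans (add_le_add (hF1M k u hu) (hF2M k u hu))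
  -- closeness
  have hlip : ∀ a ∈ ball (0 : E) 1, ∀ b ∈ ball (0 : E) 1,
      ‖D.N y a s1 - D.N y b s1‖ ≤ Cb 1 * ‖a - b‖ := fun a ha b hb => by
    refine (convex_ball (0 : E) 1).norm_image_sub_le_of_norm_fderiv_le
      (f := fun x => D.N y x s1) (fun x hx =>
        (hNs.contDiffAt (isOpen_ball.mem_nhds hx)).differentiableAt (by simp)) (fun x hx => ?_) hb ha
    have := hCb y s1 hs1m 1 x hx
    rwa [norm_iteratedFDeriv_one, hs1n, mul_one] at this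
  have hclose : ∀ u ∈ ball (0 : E) r, |D.N y' u (A.pull (fderiv ℝ κ u) s1) -
      (D.N y (κ u) s1 + B u (A.pull (fderiv ℝ κ u) s1))| ≤ K * t := fun u hu => by
    obtain ⟨h1, h2, h3, h4⟩ := hnear u hu
    have h5 := h4 s1
    rw [hs1n, mul_one] at h5
    have h6 := hlip (g u) h2 (κ u) h1
    rw [Real.norm_eq_abs] at h6
    calc |D.N y' u (A.pull (fderiv ℝ κ u) s1) -
          (D.N y (κ u) s1 + B u (A.pull (fderiv ℝ κ u) s1))|
        = |(D.N y' u (A.pull (fderiv ℝ κ u) s1) - D.N y (g u) s1 -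
            B u (A.pull (fderiv ℝ κ u) s1)) + (D.N y (g u) s1 - D.N y (κ u) s1)| := by
          congr 1; ring
      _ ≤ M 0 * t + Cb 1 * ‖g u - κ u‖ := (abs_add_le _ _).trans (add_le_add h5 h6)
      _ ≤ M 0 * t + Cb 1 * (M 0 * t) := by gcongr; exact hCbs 1
      _ = (Cb 1 + 1) * M 0 * t := by ring
      _ ≤ K * t := by gcongr; exact le_max_right _ _
  obtain ⟨s', hs', hd⟩ := hC y' _ _ (K * t) hσs (hF1s.add hF2s)
    (fun k u hu => (hσM k u hu).trans (le_max_left _ _))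
    (fun k u hu => (hFM k u hu).trans (le_max_right _ _)) (by positivity) htK hclose
  -- the end
  refine ⟨‖s‖ • s', Submodule.smul_mem _ _ hs', ?_⟩
  have hκ0 : ‖fderiv ℝ κ 0‖ ≤ M 1 := by
    have := hκM 1 0 h0r
    rwa [norm_iteratedFDeriv_one] at this
  have hte : t ^ (1 - e) ≤ 1 := Real.rpow_le_one ht.le ht1 (by linarith)
  have hhinv : ‖hinv‖ ≤ M 1 + M 0 := by
    calc ‖hinv‖ = ‖fderiv ℝ κ 0 + (hinv - fderiv ℝ κ 0)‖ := by congr 1; abel
      _ ≤ M 1 + M 0 * t ^ (1 - e) := (norm_add_le _ _).trans (add_le_add hκ0 hh)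
      _ ≤ M 1 + M 0 * 1 := by gcongr
      _ = M 1 + M 0 := by ring
  have h1 : ‖A.pull hinv s1 - s'‖ ≤ C' * t ^ (1 - e) := by
    have e1 : A.pull hinv s1 - s' =
        (A.pull hinv s1 - A.pull (fderiv ℝ κ 0) s1) + (A.pull (fderiv ℝ κ 0) s1 - s') := by abel
    have e2 : ‖A.pull hinv s1 - A.pull (fderiv ℝ κ 0) s1‖ ≤
        (M 1 + M 0 + M 1) * (M 0 * t ^ (1 - e)) * 1 := by
      refine (A.norm_pull_sub _ _ _).trans ?_
      rw [hs1n]
      gcongr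
    have e3 : (K * t) ^ (1 - e) = K ^ (1 - e) * t ^ (1 - e) := Real.mul_rpow hK0.le ht.le
    rw [e1]
    calc ‖(A.pull hinv s1 - A.pull (fderiv ℝ κ 0) s1) + (A.pull (fderiv ℝ κ 0) s1 - s')‖
        ≤ (M 1 + M 0 + M 1) * (M 0 * t ^ (1 - e)) * 1 + C * (K * t) ^ (1 - e) :=
          (norm_add_le _ _).trans (add_le_add e2 hd)
      _ ≤ (M 1 + M 0 + M 1) * (M 0 * t ^ (1 - e)) * 1 + |C| * (K * t) ^ (1 - e) := by
          gcongr
          exact le_abs_self C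
      _ = C' * t ^ (1 - e) := by
          rw [e3, hC', abs_of_nonneg hM0, abs_of_nonneg hM1]
          ring
  have e4 : A.pull hinv s - ‖s‖ • s' = ‖s‖ • (A.pull hinv s1 - s') := by
    rw [smul_sub, ← map_smul, hs1, smul_smul, mul_inv_cancel₀ hsn.ne', one_smul]
  rw [e4, norm_smul, norm_norm]
  calc ‖s‖ * ‖A.pull hinv s1 - s'‖ ≤ ‖s‖ * (C' * t ^ (1 - e)) := by gcongr
    _ = C' * t ^ (1 - e) * ‖s‖ := by ring

/-- pull back along a chain -/
def back (A : Act E W) (G : ℕ → E ≃L[ℝ] E) : ℕ → W → W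
  | 0 => id
  | n + 1 => fun w => back A G n (A.pull (G n : E →L[ℝ] E) w)

theorem back_sub (A : Act E W) (G : ℕ → E ≃L[ℝ] E) (n : ℕ) (w w' : W) :
    back A G n (w - w') = back A G n w - back A G n w' := by
  induction n generalizing w w' with
  | zero => rfl
  | succ n ih => simp only [back, map_sub, ih]

theorem norm_back (A : Act E W) (G : ℕ → E ≃L[ℝ] E) {c : ℝ} (hc : 0 ≤ c)
    (h : ∀ n s, ‖A.pull (G n : E →L[ℝ] E) s‖ ≤ c * ‖s‖) (n : ℕ) (w : W) :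
    ‖back A G n w‖ ≤ c ^ n * ‖w‖ := by
  induction n generalizing w with
  | zero => simp [back]
  | succ n ih =>
    calc ‖back A G n (A.pull (G n : E →L[ℝ] E) w)‖ ≤ c ^ n * ‖A.pull (G n : E →L[ℝ] E) w‖ := ih _
      _ ≤ c ^ n * (c * ‖w‖) := by gcongr; exact h n w
      _ = c ^ (n + 1) * ‖w‖ := by ring

/-- push forward along a chain -/
def fwd (A : Act E W) (G : ℕ → E ≃L[ℝ] E) (s : W) : ℕ → W
  | 0 => s
  | n + 1 => A.pull ((G n).symm : E →L[ℝ] E) (fwd A G s n)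

/-- **S-INV (step 3)**, with the rate `t ^ θ` for the derivatives of the holonomies, for one
`θ < 1` with `lam ^ (2 + θ) * Lam < 1`. The S-bundle is invariant under the stable holonomy. -/
theorem sinvK [FiniteDimensional ℝ W] {r : ℝ} (hr0 : 0 < r) (hQ : LemQ D r) {Cb : ℕ → ℝ}
    (hCb : ∀ v, ∀ s ∈ D.Sm v, ∀ k, ∀ x ∈ ball (0 : E) 1,
      ‖iteratedFDeriv ℝ k (fun y => D.N v y s) x‖ ≤ Cb k * ‖s‖)
    (hstep : ∀ {v G L v'}, D.St v G L v' → ∀ s, s ∈ D.Sm v ↔ L s ∈ D.Sm v')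
    {y y' : ℕ → X} {G G' : ℕ → E ≃L[ℝ] E}
    (hy : ∀ n, D.St (y n) (G n) (A.push (G n)) (y (n + 1)))
    (hy' : ∀ n, D.St (y' n) (G' n) (A.push (G' n)) (y' (n + 1)))
    {hinv : ℕ → E →L[ℝ] E}
    (hcomm : ∀ n, hinv (n + 1) ∘L (G' n : E →L[ℝ] E) = (G n : E →L[ℝ] E) ∘L hinv n)
    {M : ℕ → ℝ} {t : ℕ → ℝ} {Ct : ℝ} (ht0 : ∀ n, 0 < t n) (ht : ∀ n, t n ≤ Ct * D.lam ^ n)
    {θ : ℝ} (hθ0 : 0 < θ) (hθ1 : θ < 1) (hθ : D.lam ^ (2 + θ) * D.Lam < 1)
    (hN : ∀ᶠ n in atTop, NearK A r M θ (t n) (D.N (y n)) (D.N (y' n)) (hinv n)) :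
    ∀ s ∈ D.Sm (y 0), A.pull (hinv 0) s ∈ D.Sm (y' 0) := by
  intro s hs
  -- the exponent
  obtain ⟨e, he, he1, hgap, hθe⟩ : ∃ e : ℝ, 0 < e ∧ e < 1 ∧ D.lam ^ (3 - e) * D.Lam < 1 ∧
      1 - e = θ := by
    refine ⟨1 - θ, by linarith, by linarith, ?_, by ring⟩
    have : 3 - (1 - θ) = 2 + θ := by ring
    rw [this]
    exact hθ
  obtain ⟨C, hC0, t0, ht0', hnd⟩ := near_dist (A := A) hr0 hQ hCb he he1 M
  have hlam0 := D.lam0
  have hlam1 := D.lam1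
  have hLam0 : 0 < D.Lam := one_pos.trans_le D.Lam1
  have hCt : 0 < Ct := by
    have := (ht0 0).trans_le (ht 0)
    simpa using this
  -- the two chains of forms
  have hfm : ∀ n, fwd A G s n ∈ D.Sm (y n) := by
    intro n
    induction n with
    | zero => exact hs
    | succ n ih => exact (hstep (hy n) _).1 ih
  have hGs : ∀ n, ‖((G n).symm : E →L[ℝ] E)‖ ≤ D.lam := fun n =>
    ContinuousLinearMap.opNorm_le_bound _ hlam0.le (fun x => D.St_A (hy n) x)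
  have hfn : ∀ n, ‖fwd A G s n‖ ≤ (D.lam ^ 2) ^ n * ‖s‖ := by
    intro n
    induction n with
    | zero => simp [fwd]
    | succ n ih =>
      calc ‖A.pull ((G n).symm : E →L[ℝ] E) (fwd A G s n)‖
          ≤ ‖((G n).symm : E →L[ℝ] E)‖ ^ 2 * ‖fwd A G s n‖ := A.norm_pull _ _
        _ ≤ D.lam ^ 2 * ((D.lam ^ 2) ^ n * ‖s‖) := by gcongr; exact hGs n
        _ = (D.lam ^ 2) ^ (n + 1) * ‖s‖ := by ring
  have hpb : ∀ n s, ‖A.pull (G' n : E →L[ℝ] E) s‖ ≤ D.Lam * ‖s‖ := fun n s =>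
    D.St_L (hy' n) s
  have hback : ∀ n, ∀ w ∈ D.Sm (y' n), back A G' n w ∈ D.Sm (y' 0) := by
    intro n
    induction n with
    | zero => exact fun w hw => hw
    | succ n ih =>
      intro w hw
      refine ih _ ((hstep (hy' n) _).2 ?_)
      rw [Act.push_apply, A.pull_pull_symm]
      exact hw
  have hpn : ∀ n, A.pull (G' n : E →L[ℝ] E) (A.pull (hinv (n + 1)) (fwd A G s (n + 1))) =
      A.pull (hinv n) (fwd A G s n) := by
    intro n
    show A.pull (G' n : E →L[ℝ] E) (A.pull (hinv (n + 1))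
      (A.pull ((G n).symm : E →L[ℝ] E) (fwd A G s n))) = _
    rw [← A.pull_comp, hcomm, A.pull_comp, A.pull_symm_pull]
  have hbn : ∀ n, back A G' n (A.pull (hinv n) (fwd A G s n)) = A.pull (hinv 0) s := by
    intro n
    induction n with
    | zero => rfl
    | succ n ih =>
      show back A G' n (A.pull (G' n : E →L[ℝ] E) _) = _
      rw [hpn n, ih]
  -- the approximation
  have htend : Tendsto t atTop (𝓝 0) := by
    refine squeeze_zero (fun n => (ht0 n).le) ht ?_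
    simpa using (tendsto_pow_atTop_nhds_zero_of_lt_one hlam0.le hlam1).const_mul Ct
  have hev : ∀ᶠ n in atTop, t n ≤ t0 := htend.eventually (ge_mem_nhds ht0')
  set q : ℝ := D.lam ^ (3 - e) * D.Lam with hq
  have hq0 : 0 < q := mul_pos (Real.rpow_pos_of_pos hlam0 _) hLam0
  have hkey : ∀ᶠ n in atTop, ∃ w ∈ D.Sm (y' 0),
      ‖A.pull (hinv 0) s - w‖ ≤ C * Ct ^ (1 - e) * ‖s‖ * q ^ n := by
    filter_upwards [hev, hN] with n hn hNn
    rw [← hθe] at hNn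
    obtain ⟨s', hs', hd⟩ := hnd (y n) (y' n) (hinv n) (t n) (ht0 n) hn hNn _ (hfm n)
    refine ⟨back A G' n s', hback n s' hs', ?_⟩
    rw [← hbn n, ← back_sub]
    have h1 : (t n) ^ (1 - e) ≤ Ct ^ (1 - e) * (D.lam ^ (1 - e)) ^ n := by
      calc (t n) ^ (1 - e) ≤ (Ct * D.lam ^ n) ^ (1 - e) :=
            Real.rpow_le_rpow (ht0 n).le (ht n) (by linarith)
        _ = Ct ^ (1 - e) * (D.lam ^ (1 - e)) ^ n := by
            rw [Real.mul_rpow hCt.le (by positivity), ← Real.rpow_natCast, ← Real.rpow_natCast,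
              ← Real.rpow_mul hlam0.le, ← Real.rpow_mul hlam0.le, mul_comm (n : ℝ)]
    have h2 : q ^ n = D.Lam ^ n * ((D.lam ^ (1 - e)) ^ n * (D.lam ^ 2) ^ n) := by
      have h3 : (3 - e : ℝ) = (1 - e) + 2 := by ring
      have h4 : D.lam ^ (2 : ℝ) = D.lam ^ 2 := by norm_cast
      rw [hq, h3, Real.rpow_add hlam0, h4, mul_pow, mul_pow]
      ring
    calc ‖back A G' n (A.pull (hinv n) (fwd A G s n) - s')‖
        ≤ D.Lam ^ n * ‖A.pull (hinv n) (fwd A G s n) - s'‖ := norm_back A G' hLam0.le hpb n _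
      _ ≤ D.Lam ^ n * (C * (t n) ^ (1 - e) * ‖fwd A G s n‖) := by gcongr
      _ ≤ D.Lam ^ n * (C * (Ct ^ (1 - e) * (D.lam ^ (1 - e)) ^ n) * ((D.lam ^ 2) ^ n * ‖s‖)) := by
          gcongr
          exact hfn n
      _ = C * Ct ^ (1 - e) * ‖s‖ * q ^ n := by rw [h2]; ring
  obtain ⟨n0, hn0⟩ := eventually_atTop.1 hkey
  choose! w hw1 hw2 using hn0
  have hlim : Tendsto (fun n => w n) atTop (𝓝 (A.pull (hinv 0) s)) := by
    rw [tendsto_iff_norm_sub_tendsto_zero]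
    have hl : Tendsto (fun n : ℕ => C * Ct ^ (1 - e) * ‖s‖ * q ^ n) atTop (𝓝 0) := by
      simpa using (tendsto_pow_atTop_nhds_zero_of_lt_one hq0.le hgap).const_mul
        (C * Ct ^ (1 - e) * ‖s‖)
    refine squeeze_zero' (Eventually.of_forall fun _ => norm_nonneg _) ?_ hl
    filter_upwards [eventually_ge_atTop n0] with n hn
    rw [norm_sub_rev]
    exact hw2 n hn
  exact (D.Sm (y' 0)).closed_of_finiteDimensional.mem_of_tendsto hlim
    (by filter_upwards [eventually_ge_atTop n0] with n hn using hw1 n hn)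

/-- **S-INV (step 3).** The S-bundle is invariant under the stable holonomy. -/
theorem sinv [FiniteDimensional ℝ W] {r : ℝ} (hr0 : 0 < r) (hQ : LemQ D r) {Cb : ℕ → ℝ}
    (hCb : ∀ v, ∀ s ∈ D.Sm v, ∀ k, ∀ x ∈ ball (0 : E) 1,
      ‖iteratedFDeriv ℝ k (fun y => D.N v y s) x‖ ≤ Cb k * ‖s‖)
    (hstep : ∀ {v G L v'}, D.St v G L v' → ∀ s, s ∈ D.Sm v ↔ L s ∈ D.Sm v')
    {y y' : ℕ → X} {G G' : ℕ → E ≃L[ℝ] E}
    (hy : ∀ n, D.St (y n) (G n) (A.push (G n)) (y (n + 1)))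
    (hy' : ∀ n, D.St (y' n) (G' n) (A.push (G' n)) (y' (n + 1)))
    {hinv : ℕ → E →L[ℝ] E}
    (hcomm : ∀ n, hinv (n + 1) ∘L (G' n : E →L[ℝ] E) = (G n : E →L[ℝ] E) ∘L hinv n)
    {M : ℕ → ℝ} {t : ℕ → ℝ} {Ct : ℝ} (ht0 : ∀ n, 0 < t n) (ht : ∀ n, t n ≤ Ct * D.lam ^ n)
    (hN : ∀ n, Near A r M (t n) (D.N (y n)) (D.N (y' n)) (hinv n)) :
    ∀ s ∈ D.Sm (y 0), A.pull (hinv 0) s ∈ D.Sm (y' 0) := by
  -- the exponent
  obtain ⟨e, he, he1, hgap⟩ : ∃ e : ℝ, 0 < e ∧ e < 1 ∧ D.lam ^ (3 - e) * D.Lam < 1 := by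
    have hcont : Tendsto (fun e : ℝ => D.lam ^ (3 - e) * D.Lam) (𝓝[>] 0)
        (𝓝 (D.lam ^ (3 - (0 : ℝ)) * D.Lam)) := by
      have h1 : Continuous fun e : ℝ => D.lam ^ (3 - e) * D.Lam := by
        have : Continuous fun e : ℝ => D.lam ^ (3 - e) :=
          (Real.continuous_const_rpow D.lam0.ne').comp (continuous_const.sub continuous_id)
        exact this.mul continuous_const
      exact (h1.tendsto 0).mono_left nhdsWithin_le_nhds
    have h2 : D.lam ^ (3 - (0 : ℝ)) * D.Lam < 1 := by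
      rw [sub_zero]
      have : D.lam ^ (3 : ℝ) = D.lam ^ 3 := by norm_cast
      rw [this]
      exact D.gap
    have h3 := hcont.eventually (gt_mem_nhds h2)
    have h4 : ∀ᶠ e : ℝ in 𝓝[>] 0, e ∈ Ioo (0 : ℝ) 1 := Ioo_mem_nhdsGT one_pos
    obtain ⟨e, h5, h6⟩ := (h3.and h4).exists
    exact ⟨e, h6.1, h6.2, h5⟩
  have htend : Tendsto t atTop (𝓝 0) := by
    refine squeeze_zero (fun n => (ht0 n).le) ht ?_
    simpa using (tendsto_pow_atTop_nhds_zero_of_lt_one D.lam0.le D.lam1).const_mul Ct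
  refine sinvK (M := M) hr0 hQ hCb hstep hy hy' hcomm ht0 ht (θ := 1 - e) (by linarith)
    (by linarith)
    (by have : 2 + (1 - e) = 3 - e := by ring
        rw [this]; exact hgap) ?_
  filter_upwards [htend.eventually (ge_mem_nhds one_pos)] with n hn
  exact (hN n).nearK hr0 (ht0 n) hn (by linarith)

end Vale.Agent.P207.H340
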